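import Crest.Agent.R104.Defs
/-!
PIECE A1 (arithmetic of the Salem number). From `IsQuarticSalem β` find `θ` with the two integrality
relations.  Proof: `p := minpoly ℚ β` is monic irreducible of degree 4, separable, so over `ℂ` it is a
product of 4 distinct linear factors; two roots are `β, β⁻¹` (distinct, `β > 1`), the other two
have modulus 1 (third clause), are not real (else `p` would have the root `±1`, i.e. degree 1), and
are conjugate (real coefficients), i.e. `e^{±iθ}`.  Coefficients of `p` are integers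
(`minpoly.isIntegrallyClosed_eq_field_fractions'`), and by Vieta/comparison
`p = (X²-(β+β⁻¹)X+1)(X²-2cosθ X+1)`, so `β+β⁻¹+2cosθ = -a₃ ∈ ℤ`, `2+(β+β⁻¹)2cosθ = a₂ ∈ ℤ`.
(`(z-β)(z-1/β)(z-e^{iθ})(z-e^{-iθ})`.)  Last clause: if `e^{iθt}=1` then `p ∣ X^t-1`, so `β^t=1`, contradiction.
-/
set_option autoImplicit false
namespace Crest.Agent.R104
open MeasureTheory Crest.AnalysisR

open Polynomial in
private theorem a1_dvd_one {β : ℝ} (h1 : 1 < β) (hi : IsIntegral ℚ β) {z : ℂ}
    (hz : aeval z (minpoly ℚ β) = 0) (t : ℕ) (ht : 0 < t) (hzt : z ^ t = 1) : False := by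
  have hirr : Irreducible (minpoly ℚ β) := minpoly.irreducible hi
  have he : minpoly ℚ β = minpoly ℚ z :=
    minpoly.eq_of_irreducible_of_monic hirr hz (minpoly.monic hi)
  have hd : minpoly ℚ β ∣ X ^ t - 1 := by
    rw [he]
    exact minpoly.dvd ℚ z (by simp [hzt])
  obtain ⟨r, hr⟩ := hd
  have h2 := congrArg (aeval β) hr
  rw [map_mul, minpoly.aeval, zero_mul] at h2
  simp only [map_sub, map_pow, aeval_X, map_one] at h2
  have h3 : 1 < β ^ t := one_lt_pow₀ h1 ht.ne'
  linarith

open Polynomial in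
theorem A1 {β : ℝ} (hβ : IsQuarticSalem β) :
    ∃ (θ : ℝ) (m n : ℤ), (β + β⁻¹) + 2 * Real.cos θ = m ∧ (β + β⁻¹) * (2 * Real.cos θ) = n ∧
      ∀ t : ℕ, 0 < t → rot θ t ≠ 1 := by
  obtain ⟨h1, hint, hdeg, hinv, hroots⟩ := hβ
  have hi : IsIntegral ℚ β := hint.tower_top
  set p : ℚ[X] := minpoly ℚ β with hp
  have hirr : Irreducible p := minpoly.irreducible hi
  have hmon : p.Monic := minpoly.monic hi
  set q : ℂ[X] := p.map (algebraMap ℚ ℂ) with hq
  have hqmon : q.Monic := hmon.map _
  have hqdeg : q.natDegree = 4 := by rw [hq, natDegree_map, hdeg]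
  have hev : ∀ z : ℂ, eval z q = aeval z p := fun z => by rw [hq, eval_map_algebraMap]
  have hevr : ∀ x : ℝ, aeval ((x : ℝ) : ℂ) p = ((aeval x p : ℝ) : ℂ) := by
    intro x
    have := aeval_algebraMap_apply ℂ x p
    simpa using this
  have hβ0 : aeval β p = 0 := minpoly.aeval ℚ β
  have hpos : 0 < β := by linarith
  have hne : (β : ℂ) ≠ ((β⁻¹ : ℝ) : ℂ) := by
    intro h
    have h2 : β = β⁻¹ := by exact_mod_cast h
    have h3 : β * β⁻¹ = 1 := mul_inv_cancel₀ hpos.ne'
    rw [← h2] at h3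
    nlinarith
  -- number of roots
  have hsep : q.Separable := hirr.separable.map
  have hcard : q.roots.toFinset.card = 4 := by
    rw [Multiset.toFinset_card_of_nodup (nodup_roots hsep), IsAlgClosed.card_roots_eq_natDegree,
      hqdeg]
  obtain ⟨z, hzmem, hz1, hz2⟩ : ∃ z ∈ q.roots.toFinset, z ≠ (β : ℂ) ∧ z ≠ ((β⁻¹ : ℝ) : ℂ) := by
    by_contra hcon
    push Not at hcon
    have hsub : q.roots.toFinset ⊆ {(β : ℂ), ((β⁻¹ : ℝ) : ℂ)} := by
      intro z hz
      by_cases h : z = (β : ℂ)
      · simp [h]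
      · simp [hcon z hz h]
    have := Finset.card_le_card hsub
    have h2 : ({(β : ℂ), ((β⁻¹ : ℝ) : ℂ)} : Finset ℂ).card ≤ 2 := Finset.card_le_two
    omega
  have hz : aeval z p = 0 := by
    rw [← hev]
    have := Multiset.mem_toFinset.1 hzmem
    exact (mem_roots'.1 this).2
  have hznorm : ‖z‖ = 1 := by
    rcases hroots z hz with h | h | h
    · exact absurd h hz1
    · exact absurd h hz2
    · exact h
  -- `z` is not real
  have hzre : (starRingEnd ℂ) z ≠ z := by
    intro h
    obtain ⟨x, hx⟩ := Complex.conj_eq_iff_real.1 h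
    have hx1 : |x| = 1 := by
      rw [hx, Complex.norm_real] at hznorm
      exact hznorm
    have hx2 : z ^ 2 = 1 := by
      rw [hx, ← Complex.ofReal_pow, ← sq_abs, hx1]
      norm_num
    exact a1_dvd_one h1 hi hz 2 (by norm_num) hx2
  set w : ℂ := (starRingEnd ℂ) z with hw
  have hwroot : aeval w p = 0 := by
    have h2 : aeval ((starRingEnd ℂ) z) p = (starRingEnd ℂ) (aeval z p) := by
      rw [aeval_def, aeval_def, hom_eval₂]
      congr 1
      exact Subsingleton.elim _ _
    rw [hw, h2, hz, map_zero]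
  have hw1 : w ≠ (β : ℂ) := by
    intro h
    apply hz1
    have := congrArg (starRingEnd ℂ) h
    rw [hw, Complex.conj_conj, Complex.conj_ofReal] at this
    exact this
  have hw2 : w ≠ ((β⁻¹ : ℝ) : ℂ) := by
    intro h
    apply hz2
    have := congrArg (starRingEnd ℂ) h
    rw [hw, Complex.conj_conj, Complex.conj_ofReal] at this
    exact this
  -- comparison
  set S : ℝ := β + β⁻¹ with hS
  set Cc : ℝ := 2 * z.re with hCc
  set f : ℂ[X] := X ^ 4 + C (-((S : ℂ) + Cc)) * X ^ 3 + C (2 + (S : ℂ) * Cc) * X ^ 2 +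
    C (-((S : ℂ) + Cc)) * X + C 1 with hf
  have hfe : ∀ y : ℂ, eval y f = (y ^ 2 - S * y + 1) * (y ^ 2 - Cc * y + 1) := by
    intro y
    simp only [hf, eval_add, eval_mul, eval_pow, eval_X, eval_C]
    ring
  have hfz : ∀ y : ℂ, (y = z ∨ y = w) → eval y f = 0 := by
    intro y hy
    rw [hfe]
    have h2 : z * w = 1 := by
      rw [hw, Complex.mul_conj, Complex.normSq_eq_norm_sq, hznorm]
      norm_num
    have h3 : z + w = (Cc : ℂ) := by
      rw [hw, Complex.add_conj]
    have h4 : y ^ 2 - Cc * y + 1 = 0 := by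
      rw [← h3]
      rcases hy with rfl | rfl
      · linear_combination -h2
      · linear_combination -h2
    rw [h4, mul_zero]
  have hfb : ∀ y : ℝ, (y = β ∨ y = β⁻¹) → eval (y : ℂ) f = 0 := by
    intro y hy
    rw [hfe]
    have h2 : y ^ 2 - S * y + 1 = 0 := by
      rcases hy with rfl | rfl
      · rw [hS]; field_simp; ring
      · rw [hS]; field_simp; ring
    have h3 : (y : ℂ) ^ 2 - S * y + 1 = 0 := by exact_mod_cast h2
    rw [h3, zero_mul]
  have hqf : q = f := by
    have hcard4 : ({(β : ℂ), ((β⁻¹ : ℝ) : ℂ), z, w} : Finset ℂ).card = 4 := by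
      rw [Finset.card_insert_of_notMem, Finset.card_insert_of_notMem,
        Finset.card_insert_of_notMem, Finset.card_singleton]
      · simp only [Finset.mem_singleton]; exact fun h => hzre h.symm
      · simp only [Finset.mem_insert, Finset.mem_singleton, not_or]
        exact ⟨fun h => hz2 h.symm, fun h => hw2 h.symm⟩
      · simp only [Finset.mem_insert, Finset.mem_singleton, not_or]
        exact ⟨hne, fun h => hz1 h.symm, fun h => hw1 h.symm⟩
    have hfd : f.natDegree = 4 := by rw [hf]; compute_degree!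
    have hfmon : f.Monic := by rw [hf]; monicity!
    refine eq_of_degree_sub_lt_of_eval_finset_eq
      ({(β : ℂ), ((β⁻¹ : ℝ) : ℂ), z, w} : Finset ℂ) ?_ ?_
    · rw [hcard4]
      have hq0 : q ≠ 0 := hqmon.ne_zero
      have hdd : q.degree = f.degree := by
        rw [degree_eq_natDegree hq0, degree_eq_natDegree hfmon.ne_zero, hqdeg, hfd]
      have := degree_sub_lt hdd hq0 (by rw [hqmon.leadingCoeff, hfmon.leadingCoeff])
      rw [degree_eq_natDegree hq0, hqdeg] at this
      exact this
    · intro y hy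
      simp only [Finset.mem_insert, Finset.mem_singleton] at hy
      rcases hy with rfl | rfl | rfl | rfl
      · rw [hfb β (Or.inl rfl), hev, hevr, hβ0, Complex.ofReal_zero]
      · rw [hfb β⁻¹ (Or.inr rfl), hev, hevr, hinv, Complex.ofReal_zero]
      · rw [hfz _ (Or.inl rfl), hev, hz]
      · rw [hfz _ (Or.inr rfl), hev, hwroot]
  -- integer coefficients
  have hpz : p = (minpoly ℤ β).map (algebraMap ℤ ℚ) :=
    minpoly.isIntegrallyClosed_eq_field_fractions' ℚ hint
  have hcoef : ∀ i, q.coeff i = (((minpoly ℤ β).coeff i : ℤ) : ℂ) := by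
    intro i
    rw [hq, hpz, coeff_map, coeff_map]
    simp
  have hc3 : f.coeff 3 = -((S : ℂ) + Cc) := by
    rw [hf]
    simp only [coeff_add, coeff_C_mul, coeff_X_pow, coeff_X, coeff_C]
    norm_num
  have hc2 : f.coeff 2 = 2 + (S : ℂ) * Cc := by
    rw [hf]
    simp only [coeff_add, coeff_C_mul, coeff_X_pow, coeff_X, coeff_C]
    norm_num
  have hcos : Real.cos z.arg = z.re := by
    have hz0 : z ≠ 0 := by
      intro h
      rw [h, norm_zero] at hznorm
      norm_num at hznorm
    rw [Complex.cos_arg hz0, hznorm, div_one]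
  refine ⟨z.arg, -(minpoly ℤ β).coeff 3, (minpoly ℤ β).coeff 2 - 2, ?_, ?_, ?_⟩
  · rw [hcos]
    have h2 : -((S : ℂ) + Cc) = (((minpoly ℤ β).coeff 3 : ℤ) : ℂ) := by
      rw [← hc3, ← hqf, hcoef]
    have h3 : -(S + Cc) = (((minpoly ℤ β).coeff 3 : ℤ) : ℝ) := by exact_mod_cast h2
    push_cast
    rw [← h3]
    ring
  · rw [hcos]
    have h2 : 2 + ((S : ℂ) * Cc) = (((minpoly ℤ β).coeff 2 : ℤ) : ℂ) := by
      rw [← hc2, ← hqf, hcoef]
    have h3 : 2 + (S * Cc) = (((minpoly ℤ β).coeff 2 : ℤ) : ℝ) := by exact_mod_cast h2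
    push_cast
    rw [← h3]
    ring
  · intro t ht h
    have hzr : rot z.arg 1 = z := by
      unfold rot
      have := Complex.norm_mul_exp_arg_mul_I z
      rw [hznorm] at this
      simpa using this
    rw [rot_nat, hzr] at h
    exact a1_dvd_one h1 hi hz t ht h

end Crest.Agent.R104
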